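import Vale.Agent.Lib.P252.M10

/-!
# The affine Bernstein problem fails in every dimension `n ≥ 10`

There is a smooth entire function with positive definite Hessian solving the affine maximal
equation which is not a polynomial of degree at most two.
-/

open scoped ContDiff

namespace Vale.Agent.Results.P252.A_counterexample

theorem result (n : ℕ) (hn : 10 ≤ n) :
    ∃ u : (Fin n → ℝ) → ℝ, ContDiff ℝ ∞ u ∧ (∀ x, (P252.hessMat u x).PosDef) ∧
      (∀ x, P252.AffineMaximalAt u x) ∧ ¬ P252.IsQuadratic u :=
  P252.main_counterexample n hn

end Vale.Agent.Results.P252.A_counterexample
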