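import Vale.Agent.Lib.P252.M11

/-!
# The affine Bernstein problem fails in every dimension `n ≥ 10`, also for affine complete graphs

There is a smooth entire function with positive definite Hessian solving the affine maximal
equation, not a polynomial of degree at most two, whose Berwald-Blaschke metric is complete.
-/

open scoped ContDiff

namespace Vale.Agent.Results.P252.B_affine_complete

theorem result (n : ℕ) (hn : 10 ≤ n) :
    ∃ u : (Fin n → ℝ) → ℝ, ContDiff ℝ ∞ u ∧ (∀ x, (P252.hessMat u x).PosDef) ∧
      (∀ x, P252.AffineMaximalAt u x) ∧ ¬ P252.IsQuadratic u ∧ P252.AffineComplete u :=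
  P252.main_counterexample_complete n hn

end Vale.Agent.Results.P252.B_affine_complete
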